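import Mathlib

namespace Vale.Agent.P252

/-- The Euclidean space `ℝ^n`. -/
abbrev Eu (n : ℕ) := EuclideanSpace ℝ (Fin n)

/-- The `i`-th standard basis vector. -/
noncomputable def stdVec {n : ℕ} (i : Fin n) : Eu n := EuclideanSpace.single i 1

/-- The Hessian matrix `∂_i ∂_j u (x)`. -/
noncomputable def hess {n : ℕ} (u : Eu n → ℝ) (x : Eu n) : Matrix (Fin n) (Fin n) ℝ :=
  fun i j => fderiv ℝ (fun y => fderiv ℝ u y (stdVec j)) x (stdVec i)

/-- The function `w = (det D²u)^(-(n+1)/(n+2))`. -/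
noncomputable def affW {n : ℕ} (u : Eu n → ℝ) (x : Eu n) : ℝ :=
  (hess u x).det ^ (-(((n : ℝ) + 1) / ((n : ℝ) + 2)))

/-- The affine maximal equation `∑ U^{ij} ∂_ij w = 0` on `ℝ^n`, with `U = det(D²u) (D²u)⁻¹`. -/
def AffineMaximal {n : ℕ} (u : Eu n → ℝ) : Prop :=
  ∀ x, ∑ i, ∑ j, ((hess u x).det • (hess u x)⁻¹) i j * hess (affW u) x i j = 0

end Vale.Agent.P252
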