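import Vale.Agent.P252.Defs

open scoped ContDiff
open Finset

namespace Vale.Agent.P252

variable {n : ℕ}

lemma stdVec_apply_self (i : Fin n) : (stdVec i : Eu n) i = 1 := by
  simp [stdVec]

lemma stdVec_apply_ne {i j : Fin n} (h : j ≠ i) : (stdVec i : Eu n) j = 0 := by
  simp [stdVec, h]

lemma add_smul_self (y : Eu n) (t : ℝ) (i : Fin n) : (y + t • stdVec i) i = y i + t := by
  simp [stdVec_apply_self]

lemma add_smul_ne (y : Eu n) (t : ℝ) {i j : Fin n} (h : j ≠ i) : (y + t • stdVec i) j = y j := by
  simp [stdVec_apply_ne h]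

/-- A directional derivative as the derivative along a line. -/
lemma fderiv_line {g : Eu n → ℝ} {y v : Eu n} (hg : DifferentiableAt ℝ g y) :
    fderiv ℝ g y v = deriv (fun t : ℝ => g (y + t • v)) 0 := by
  have hline : HasDerivAt (fun t : ℝ => y + t • v) v 0 := by
    have := ((hasDerivAt_id (0 : ℝ)).smul_const v).const_add y
    simpa using this
  have hy : y + (0 : ℝ) • v = y := by simp
  have h1 : HasFDerivAt g (fderiv ℝ g y) ((fun t : ℝ => y + t • v) 0) := by
    show HasFDerivAt g (fderiv ℝ g y) (y + (0 : ℝ) • v)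
    rw [hy]
    exact hg.hasFDerivAt
  exact (h1.comp_hasDerivAt 0 hline).deriv.symm

lemma coord_smooth (i : Fin n) : ContDiff ℝ ∞ (fun y : Eu n => y i) := by
  have := (EuclideanSpace.proj i : Eu n →L[ℝ] ℝ).contDiff (n := ∞)
  exact this

/-- Derivative along a coordinate line of a one-coordinate function. -/
lemma deriv_coord_line {g : ℝ → ℝ} (hg : Differentiable ℝ g) (x : Eu n) (i j : Fin n) :
    deriv (fun t : ℝ => g ((x + t • stdVec i) j)) 0 = if i = j then deriv g (x j) else 0 := by
  by_cases h : i = j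
  · subst h
    rw [if_pos rfl]
    have h1 : (fun t : ℝ => g ((x + t • stdVec i) i)) = fun t => g (x i + t) := by
      funext t
      rw [add_smul_self]
    rw [h1]
    have h2 := ((hg (x i + 0)).hasDerivAt).comp_const_add (x i) 0
    rw [h2.deriv, add_zero]
  · rw [if_neg h]
    have h1 : (fun t : ℝ => g ((x + t • stdVec i) j)) = fun _ => g (x j) := by
      funext t
      rw [add_smul_ne x t (Ne.symm h)]
    rw [h1]
    simp

/-- A concave positive function on the line has vanishing derivative. -/
lemma deriv_zero_of_concave_pos {h : ℝ → ℝ} (hd : Differentiable ℝ h)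
    (hdd : Differentiable ℝ (deriv h)) (hneg : ∀ t, deriv (deriv h) t ≤ 0)
    (hpos : ∀ t, 0 < h t) (a : ℝ) : deriv h a = 0 := by
  have hanti : Antitone (deriv h) := antitone_of_deriv_nonpos hdd hneg
  rcases lt_trichotomy (deriv h a) 0 with hlt | heq | hgt
  · exfalso
    set m := deriv h a with hm
    set b := a + (h a / (-m) + 1) with hb
    have hq : 0 < h a / (-m) := div_pos (hpos a) (by linarith)
    have hab : a < b := by rw [hb]; linarith
    obtain ⟨c, hc, hslope⟩ := exists_deriv_eq_slope h hab hd.continuous.continuousOn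
      hd.differentiableOn
    have h1 : deriv h c ≤ m := hanti hc.1.le
    rw [hslope, div_le_iff₀ (by linarith)] at h1
    have h2 : b - a = h a / (-m) + 1 := by rw [hb]; ring
    rw [h2] at h1
    have h3 : m * (h a / (-m) + 1) = - h a + m := by
      have hne : m ≠ 0 := hlt.ne
      field_simp
    rw [h3] at h1
    have := hpos b
    linarith
  · exact heq
  · exfalso
    set m := deriv h a with hm
    set b := a - (h a / m + 1) with hb
    have hq : 0 < h a / m := div_pos (hpos a) hgt
    have hab : b < a := by rw [hb]; linarith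
    obtain ⟨c, hc, hslope⟩ := exists_deriv_eq_slope h hab hd.continuous.continuousOn
      hd.differentiableOn
    have h1 : m ≤ deriv h c := hanti hc.2.le
    rw [hslope, le_div_iff₀ (by linarith)] at h1
    have h2 : a - b = h a / m + 1 := by rw [hb]; ring
    rw [h2] at h1
    have h3 : m * (h a / m + 1) = h a + m := by
      have hne : m ≠ 0 := hgt.ne'
      field_simp
    rw [h3] at h1
    have := hpos b
    linarith

/-- A second primitive: constant second derivative gives a quadratic. -/
lemma quadratic_of_const {f : ℝ → ℝ} (hf : ContDiff ℝ ∞ f) {a : ℝ}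
    (ha : ∀ t, deriv (deriv f) t = a) : ∃ b c, ∀ t, f t = a * t ^ 2 / 2 + b * t + c := by
  have h1 := contDiff_infty_iff_deriv.1 hf
  have h2 := contDiff_infty_iff_deriv.1 h1.2
  have hd1 : ∀ t, HasDerivAt f (deriv f t) t := fun t => (h1.1 t).hasDerivAt
  have hd2 : ∀ t, HasDerivAt (deriv f) a t := fun t => by
    have := (h2.1 t).hasDerivAt
    rwa [ha] at this
  have hc1 : ∀ t, deriv f t - a * t = deriv f 0 - a * 0 := by
    intro t
    have hdiff : Differentiable ℝ (fun t => deriv f t - a * t) :=
      h2.1.sub ((differentiable_id).const_mul a)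
    refine is_const_of_deriv_eq_zero hdiff ?_ t 0
    intro s
    have h3 : HasDerivAt (fun t => deriv f t - a * t) (a - a * 1) s :=
      (hd2 s).fun_sub ((hasDerivAt_id' s).const_mul a)
    rw [h3.deriv]
    ring
  refine ⟨deriv f 0, f 0, ?_⟩
  intro t
  have hg : ∀ t, HasDerivAt (fun t => f t - (a * t ^ 2 / 2 + deriv f 0 * t)) 0 t := by
    intro s
    have h4 : HasDerivAt (fun t : ℝ => a * t ^ 2 / 2 + deriv f 0 * t)
        (a * (2 * s) / 2 + deriv f 0) s := by
      have h5 : HasDerivAt (fun t : ℝ => t ^ 2) (2 * s) s := by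
        simpa using hasDerivAt_pow 2 s
      have h6 := ((h5.const_mul a).div_const 2).fun_add
        ((hasDerivAt_id' s).const_mul (deriv f 0))
      simpa using h6
    have h7 := (hd1 s).fun_sub h4
    have h8 : deriv f s - (a * (2 * s) / 2 + deriv f 0) = 0 := by
      have := hc1 s
      linarith
    rwa [h8] at h7
  have hconst : f t - (a * t ^ 2 / 2 + deriv f 0 * t) = f 0 - (a * 0 ^ 2 / 2 + deriv f 0 * 0) :=
    is_const_of_deriv_eq_zero (f := fun t => f t - (a * t ^ 2 / 2 + deriv f 0 * t))
      (fun s => (hg s).differentiableAt) (fun s => (hg s).deriv) t 0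
  linarith

/-- The Hessian of a separable function is diagonal. -/
lemma hess_separable {f : Fin n → ℝ → ℝ} (hf : ∀ i, ContDiff ℝ ∞ (f i)) (x : Eu n) :
    hess (fun y : Eu n => ∑ i, f i (y i)) x
      = Matrix.diagonal (fun i => deriv (deriv (f i)) (x i)) := by
  have hs1 : ∀ i, ContDiff ℝ ∞ (deriv (f i)) := fun i => (contDiff_infty_iff_deriv.1 (hf i)).2
  have hd0 : ∀ i, Differentiable ℝ (f i) := fun i => (hf i).differentiable (by simp)
  have hd1 : ∀ i, Differentiable ℝ (deriv (f i)) := fun i => (hs1 i).differentiable (by simp)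
  have hu : ContDiff ℝ ∞ (fun y : Eu n => ∑ i, f i (y i)) :=
    ContDiff.sum (fun i _ => (hf i).comp (coord_smooth i))
  have hgrad : ∀ j : Fin n, (fun y : Eu n => fderiv ℝ (fun y : Eu n => ∑ i, f i (y i)) y (stdVec j))
      = fun y => deriv (f j) (y j) := by
    intro j
    funext y
    rw [fderiv_line ((hu.differentiable (by simp)) y)]
    have h1 : (fun t : ℝ => ∑ i, f i ((y + t • stdVec j) i))
        = fun t => f j ((y + t • stdVec j) j) + ∑ i ∈ univ.erase j, f i (y i) := by
      funext t
      rw [← Finset.add_sum_erase univ _ (mem_univ j)]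
      congr 1
      refine Finset.sum_congr rfl (fun i hi => ?_)
      rw [add_smul_ne y t (Finset.ne_of_mem_erase hi)]
    rw [h1, deriv_add_const]
    rw [deriv_coord_line (hd0 j) y j j, if_pos rfl]
  ext i j
  simp only [hess, hgrad]
  have hdiff : DifferentiableAt ℝ (fun y : Eu n => deriv (f j) (y j)) x :=
    (((hs1 j).comp (coord_smooth j)).differentiable (by simp)) x
  rw [fderiv_line hdiff, deriv_coord_line (hd1 j) x i j]
  by_cases h : i = j
  · subst h
    simp
  · simp [h]

/-- The main computation for separable functions. -/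
theorem separable_quadratic (f : Fin n → ℝ → ℝ) (hf : ∀ i, ContDiff ℝ ∞ (f i))
    (hpos : ∀ i t, 0 < deriv (deriv (f i)) t)
    (ham : AffineMaximal (fun x : Eu n => ∑ i, f i (x i))) :
    ∀ i, ∃ a b c : ℝ, 0 < a ∧ ∀ t, f i t = a * t ^ 2 / 2 + b * t + c := by
  classical
  set u : Eu n → ℝ := fun x => ∑ i, f i (x i) with hu
  set d : Fin n → ℝ → ℝ := fun i => deriv (deriv (f i)) with hd
  have hds : ∀ i, ContDiff ℝ ∞ (d i) := fun i =>
    (contDiff_infty_iff_deriv.1 (contDiff_infty_iff_deriv.1 (hf i)).2).2
  set β : ℝ := ((n : ℝ) + 1) / ((n : ℝ) + 2) with hβ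
  have hβpos : 0 < β := by positivity
  set h : Fin n → ℝ → ℝ := fun i t => d i t ^ (-β) with hh
  have hhpos : ∀ i t, 0 < h i t := fun i t => Real.rpow_pos_of_pos (hpos i t) _
  have hhs : ∀ i, ContDiff ℝ ∞ (h i) := fun i =>
    (hds i).rpow_const_of_ne (fun t => (hpos i t).ne')
  have hh1s : ∀ i, ContDiff ℝ ∞ (deriv (h i)) := fun i => (contDiff_infty_iff_deriv.1 (hhs i)).2
  have hh0d : ∀ i, Differentiable ℝ (h i) := fun i => (hhs i).differentiable (by simp)
  have hh1d : ∀ i, Differentiable ℝ (deriv (h i)) := fun i => (hh1s i).differentiable (by simp)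
  -- the function w
  have hw : affW u = fun y : Eu n => ∏ k, h k (y k) := by
    funext y
    simp only [affW, hu, hess_separable hf y, Matrix.det_diagonal]
    rw [Real.finsetProd_rpow _ _ (fun k _ => (hpos k (y k)).le)]
  have hws : ContDiff ℝ ∞ (fun y : Eu n => ∏ k, h k (y k)) :=
    contDiff_prod (fun k _ => (hhs k).comp (coord_smooth k))
  -- first derivative of w along the coordinate i
  have hw1 : ∀ i : Fin n, (fun y : Eu n => fderiv ℝ (affW u) y (stdVec i))
      = fun y => deriv (h i) (y i) * ∏ k ∈ univ.erase i, h k (y k) := by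
    intro i
    funext y
    rw [hw, fderiv_line ((hws.differentiable (by simp)) y)]
    have h1 : (fun t : ℝ => ∏ k, h k ((y + t • stdVec i) k))
        = fun t => h i ((y + t • stdVec i) i) * ∏ k ∈ univ.erase i, h k (y k) := by
      funext t
      rw [← Finset.mul_prod_erase univ _ (mem_univ i)]
      congr 1
      refine Finset.prod_congr rfl (fun k hk => ?_)
      rw [add_smul_ne y t (Finset.ne_of_mem_erase hk)]
    rw [h1, deriv_mul_const_field, deriv_coord_line (hh0d i) y i i, if_pos rfl]
  -- the diagonal second derivative of w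
  have hw2 : ∀ (i : Fin n) (x : Eu n), hess (affW u) x i i
      = deriv (deriv (h i)) (x i) * ∏ k ∈ univ.erase i, h k (x k) := by
    intro i x
    simp only [hess, hw1]
    have hg : ContDiff ℝ ∞ (fun y : Eu n => deriv (h i) (y i) * ∏ k ∈ univ.erase i, h k (y k)) :=
      ((hh1s i).comp (coord_smooth i)).mul
        (contDiff_prod (fun k _ => (hhs k).comp (coord_smooth k)))
    rw [fderiv_line ((hg.differentiable (by simp)) x)]
    have h1 : (fun t : ℝ => deriv (h i) ((x + t • stdVec i) i) *
        ∏ k ∈ univ.erase i, h k ((x + t • stdVec i) k))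
        = fun t => deriv (h i) ((x + t • stdVec i) i) * ∏ k ∈ univ.erase i, h k (x k) := by
      funext t
      congr 1
      refine Finset.prod_congr rfl (fun k hk => ?_)
      rw [add_smul_ne x t (Finset.ne_of_mem_erase hk)]
    rw [h1, deriv_mul_const_field, deriv_coord_line (hh1d i) x i i, if_pos rfl]
  -- the separated equation
  set φ : Fin n → ℝ → ℝ := fun i t => deriv (deriv (h i)) t / (d i t * h i t) with hφ
  have hsep : ∀ x : Eu n, ∑ i, φ i (x i) = 0 := by
    intro x
    have hx := ham x
    set v : Fin n → ℝ := fun i => d i (x i) with hv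
    have hvpos : ∀ i, 0 < v i := fun i => hpos i (x i)
    have hH : hess u x = Matrix.diagonal v := hess_separable hf x
    have hinv : (Matrix.diagonal v)⁻¹ = Matrix.diagonal (fun i => (v i)⁻¹) := by
      apply Matrix.inv_eq_right_inv
      rw [Matrix.diagonal_mul_diagonal, ← Matrix.diagonal_one]
      congr 1
      funext i
      exact mul_inv_cancel₀ (hvpos i).ne'
    rw [hH, hinv, Matrix.det_diagonal] at hx
    set P : ℝ := ∏ k, v k with hP
    have hPpos : 0 < P := Finset.prod_pos (fun k _ => hvpos k)
    set Wx : ℝ := ∏ k, h k (x k) with hWx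
    have hWpos : 0 < Wx := Finset.prod_pos (fun k _ => hhpos k (x k))
    have hterm : ∀ i : Fin n, ∑ j, (P • Matrix.diagonal (fun i => (v i)⁻¹)) i j * hess (affW u) x i j
        = P * Wx * φ i (x i) := by
      intro i
      rw [Finset.sum_eq_single i]
      · rw [hw2 i x]
        simp only [Matrix.smul_apply, Matrix.diagonal_apply_eq, smul_eq_mul, hφ]
        have h1 : Wx = h i (x i) * ∏ k ∈ univ.erase i, h k (x k) :=
          (Finset.mul_prod_erase univ _ (mem_univ i)).symm
        have h2 := (hhpos i (x i)).ne'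
        have h3 := (hvpos i).ne'
        have h4 : d i (x i) = v i := rfl
        rw [h1, h4]
        field_simp
      · intro j _ hj
        simp [Matrix.diagonal_apply_ne _ (Ne.symm hj)]
      · intro hi
        exact absurd (mem_univ i) hi
    rw [Finset.sum_congr rfl (fun i _ => hterm i), ← Finset.mul_sum] at hx
    have hne : P * Wx ≠ 0 := (mul_pos hPpos hWpos).ne'
    exact (mul_eq_zero.1 hx).resolve_left hne
  -- each separated term is constant
  have hconst : ∀ i t, φ i t = φ i 0 := by
    intro i t
    have h1 := hsep (t • stdVec i)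
    have h2 := hsep 0
    rw [← Finset.add_sum_erase univ _ (mem_univ i)] at h1 h2
    have h3 : ∑ k ∈ univ.erase i, φ k ((t • stdVec i : Eu n) k)
        = ∑ k ∈ univ.erase i, φ k ((0 : Eu n) k) := by
      refine Finset.sum_congr rfl (fun k hk => ?_)
      have hne := Finset.ne_of_mem_erase hk
      simp [stdVec_apply_ne hne]
    rw [h3] at h1
    have h4 : ((t • stdVec i : Eu n) i) = t := by simp [stdVec_apply_self]
    rw [h4] at h1
    have h5 : (0 : Eu n) i = 0 := rfl
    rw [h5] at h2
    linarith
  set c : Fin n → ℝ := fun i => φ i 0 with hc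
  have hsum : ∑ i, c i = 0 := by
    have := hsep 0
    simpa [hc] using this
  have hkey : ∀ i t, deriv (deriv (h i)) t = c i * (d i t * h i t) := by
    intro i t
    have h1 := hconst i t
    have h2 : 0 < d i t * h i t := mul_pos (hpos i t) (hhpos i t)
    simp only [hφ] at h1
    simp only [hc, hφ]
    rw [← h1]
    exact (div_mul_cancel₀ _ h2.ne').symm
  have hflat : ∀ i, (∀ t, deriv (deriv (h i)) t ≤ 0) → ∀ t, deriv (h i) t = 0 := fun i hneg t =>
    deriv_zero_of_concave_pos (hh0d i) (hh1d i) hneg (hhpos i) t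
  have hcnonneg : ∀ i, 0 ≤ c i := by
    intro i
    by_contra hlt
    push Not at hlt
    have hneg : ∀ t, deriv (deriv (h i)) t ≤ 0 := by
      intro t
      rw [hkey]
      exact mul_nonpos_of_nonpos_of_nonneg hlt.le (mul_pos (hpos i t) (hhpos i t)).le
    have hz := hflat i hneg
    have h1 : deriv (h i) = fun _ => 0 := funext hz
    have h2 := hkey i 0
    rw [h1] at h2
    simp only [deriv_const] at h2
    have h3 : 0 < d i 0 * h i 0 := mul_pos (hpos i 0) (hhpos i 0)
    have h4 : c i * (d i 0 * h i 0) < 0 := mul_neg_of_neg_of_pos hlt h3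
    linarith
  have hczero : ∀ i, c i = 0 := fun i =>
    (Finset.sum_eq_zero_iff_of_nonneg (fun k _ => hcnonneg k)).1 hsum i (mem_univ i)
  intro i
  have hneg : ∀ t, deriv (deriv (h i)) t ≤ 0 := by
    intro t
    rw [hkey, hczero i]
    simp
  have hz := hflat i hneg
  have hconstH : ∀ t, h i t = h i 0 := fun t =>
    is_const_of_deriv_eq_zero (hh0d i) hz t 0
  have hconstD : ∀ t, d i t = d i 0 := by
    intro t
    have h1 := hconstH t
    simp only [hh] at h1
    have h2 : (d i t ^ (-β)) ^ (-(1 / β)) = (d i 0 ^ (-β)) ^ (-(1 / β)) := by rw [h1]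
    rw [← Real.rpow_mul (hpos i t).le, ← Real.rpow_mul (hpos i 0).le] at h2
    have h3 : -β * -(1 / β) = 1 := by
      field_simp
    rw [h3, Real.rpow_one, Real.rpow_one] at h2
    exact h2
  obtain ⟨b, c', hq⟩ := quadratic_of_const (hf i) (a := d i 0) hconstD
  exact ⟨d i 0, b, c', hpos i 0, hq⟩

end Vale.Agent.P252
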