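import Mathlib

open scoped ContDiff
open Finset

namespace Vale.Agent.P252

/-- A positive function on the line with nonpositive second derivative has zero derivative. -/
lemma concave_pos_const {φ : ℝ → ℝ} (hd : Differentiable ℝ φ) (hd' : Differentiable ℝ (deriv φ))
    (hpos : ∀ t, 0 < φ t) (hc : ∀ t, deriv (deriv φ) t ≤ 0) (a : ℝ) : deriv φ a = 0 := by
  have hanti : Antitone (deriv φ) := antitone_of_deriv_nonpos hd' hc
  by_contra hne
  rcases lt_or_gt_of_ne hne with hneg | hpos'
  · -- negative slope: φ becomes negative on the right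
    set t := a + (φ a + 1) / (-(deriv φ a)) with ht
    have hpos2 : 0 < (φ a + 1) / (-(deriv φ a)) := div_pos (by linarith [hpos a]) (by linarith)
    have hat : a < t := by linarith
    obtain ⟨ξ, hξ, hξe⟩ := exists_deriv_eq_slope φ hat hd.continuous.continuousOn
      hd.differentiableOn
    have h1 : deriv φ ξ ≤ deriv φ a := hanti hξ.1.le
    have h2 : φ t - φ a = deriv φ ξ * (t - a) := by
      rw [hξe]
      field_simp [sub_ne_zero.mpr hat.ne']
    have h3 : (t - a) = (φ a + 1) / (-(deriv φ a)) := by linarith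
    have h4 : deriv φ ξ * (t - a) ≤ deriv φ a * (t - a) :=
      mul_le_mul_of_nonneg_right h1 (by linarith)
    have h5 : deriv φ a * (t - a) = -(φ a + 1) := by
      rw [h3]
      field_simp
    have := hpos t
    linarith
  · -- positive slope: φ becomes negative on the left
    set t := a - (φ a + 1) / deriv φ a with ht
    have hpos2 : 0 < (φ a + 1) / deriv φ a := div_pos (by linarith [hpos a]) hpos'
    have hat : t < a := by linarith
    obtain ⟨ξ, hξ, hξe⟩ := exists_deriv_eq_slope φ hat hd.continuous.continuousOn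
      hd.differentiableOn
    have h1 : deriv φ a ≤ deriv φ ξ := hanti hξ.2.le
    have h2 : φ a - φ t = deriv φ ξ * (a - t) := by
      rw [hξe]
      field_simp [sub_ne_zero.mpr hat.ne']
    have h3 : (a - t) = (φ a + 1) / deriv φ a := by linarith
    have h4 : deriv φ a * (a - t) ≤ deriv φ ξ * (a - t) :=
      mul_le_mul_of_nonneg_right h1 (by linarith)
    have h5 : deriv φ a * (a - t) = φ a + 1 := by
      rw [h3]
      field_simp
    have := hpos t
    linarith

/-- A function with constant second derivative is a quadratic polynomial. -/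
lemma quadratic_of_deriv2 {f : ℝ → ℝ} (hf : ContDiff ℝ ∞ f) {c : ℝ}
    (hc : ∀ t, deriv (deriv f) t = c) (t : ℝ) :
    f t = c / 2 * t ^ 2 + deriv f 0 * t + f 0 := by
  have hd : Differentiable ℝ f := hf.differentiable (by simp)
  have hd' : Differentiable ℝ (deriv f) := by
    have h2 := (contDiff_infty_iff_deriv.1 hf).2
    exact h2.differentiable (by simp)
  have h1 : ∀ t, deriv f t = c * t + deriv f 0 := by
    intro t
    have hg : Differentiable ℝ (fun t => deriv f t - c * t) :=
      hd'.sub ((differentiable_const c).mul differentiable_id)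
    have hz : ∀ x, deriv (fun t => deriv f t - c * t) x = 0 := by
      intro x
      have : HasDerivAt (fun t => deriv f t - c * t) (deriv (deriv f) x - c * 1) x :=
        (hd' x).hasDerivAt.sub ((hasDerivAt_id x).const_mul c)
      rw [this.deriv, hc x]
      ring
    have h5 : deriv f t - c * t = deriv f 0 - c * 0 := is_const_of_deriv_eq_zero hg hz t 0
    linarith
  have hg : Differentiable ℝ (fun t => f t - (c / 2 * t ^ 2 + deriv f 0 * t)) := by
    apply hd.sub
    fun_prop
  have hz : ∀ x, deriv (fun t => f t - (c / 2 * t ^ 2 + deriv f 0 * t)) x = 0 := by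
    intro x
    have h3 : HasDerivAt (fun t : ℝ => c / 2 * t ^ 2 + deriv f 0 * t)
        (c / 2 * (2 * x) + deriv f 0 * 1) x := by
      have h4 : HasDerivAt (fun t : ℝ => t ^ 2) (2 * x) x := by
        simpa using hasDerivAt_pow 2 x
      exact (h4.const_mul (c / 2)).add ((hasDerivAt_id x).const_mul (deriv f 0))
    have : HasDerivAt (fun t => f t - (c / 2 * t ^ 2 + deriv f 0 * t))
        (deriv f x - (c / 2 * (2 * x) + deriv f 0 * 1)) x := (hd x).hasDerivAt.sub h3
    rw [this.deriv, h1 x]
    ring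
  have h5 : f t - (c / 2 * t ^ 2 + deriv f 0 * t)
      = f 0 - (c / 2 * (0 : ℝ) ^ 2 + deriv f 0 * (0 : ℝ)) := is_const_of_deriv_eq_zero hg hz t 0
  nlinarith

variable {ι : Type*} [Fintype ι] [DecidableEq ι]

/-- The main separation-of-variables statement. -/
theorem separated_main (f : ι → ℝ → ℝ) (hf : ∀ i, ContDiff ℝ ∞ (f i))
    (hconv : ∀ i t, 0 < deriv (deriv (f i)) t) (α : ℝ) (hα : 0 < α)
    (hAM : ∀ x : ι → ℝ,
      ∑ i, (∏ j ∈ univ.erase i, deriv (deriv (f j)) (x j)) *
        (deriv (deriv (fun t => deriv (deriv (f i)) t ^ (-α))) (x i) *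
          ∏ j ∈ univ.erase i, (deriv (deriv (f j)) (x j)) ^ (-α)) = 0) :
    ∀ i, ∃ c, 0 < c ∧ ∀ t, deriv (deriv (f i)) t = c := by
  set g : ι → ℝ → ℝ := fun i => deriv (deriv (f i)) with hg
  have hgs : ∀ i, ContDiff ℝ ∞ (g i) := fun i =>
    (contDiff_infty_iff_deriv.1 (contDiff_infty_iff_deriv.1 (hf i)).2).2
  set φ : ι → ℝ → ℝ := fun i t => g i t ^ (-α) with hφ
  have hφpos : ∀ i t, 0 < φ i t := fun i t => Real.rpow_pos_of_pos (hconv i t) _
  have hφs : ∀ i, ContDiff ℝ ∞ (φ i) := fun i =>
    (hgs i).rpow_const_of_ne (fun t => (hconv i t).ne')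
  have hφd : ∀ i, Differentiable ℝ (φ i) := fun i => (hφs i).differentiable (by simp)
  have hφd' : ∀ i, Differentiable ℝ (deriv (φ i)) := fun i =>
    ((contDiff_infty_iff_deriv.1 (hφs i)).2).differentiable (by simp)
  -- the separated quantity
  set ψ : ι → ℝ → ℝ := fun i t => deriv (deriv (φ i)) t / (g i t * φ i t) with hψ
  have hsum : ∀ x : ι → ℝ, ∑ i, ψ i (x i) = 0 := by
    intro x
    have h0 := hAM x
    have hP : 0 < ∏ j, (g j (x j) * φ j (x j)) :=
      Finset.prod_pos fun j _ => mul_pos (hconv j _) (hφpos j _)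
    have h1 : ∀ i ∈ (univ : Finset ι), (∏ j ∈ univ.erase i, g j (x j)) *
        (deriv (deriv (φ i)) (x i) * ∏ j ∈ univ.erase i, φ j (x j))
        = ψ i (x i) * ∏ j, (g j (x j) * φ j (x j)) := by
      intro i _
      rw [← Finset.mul_prod_erase univ _ (mem_univ i), Finset.prod_mul_distrib]
      have h2 : g i (x i) * φ i (x i) ≠ 0 := (mul_pos (hconv i _) (hφpos i _)).ne'
      simp only [hψ]
      rw [div_mul_eq_mul_div, eq_div_iff h2]
      ring
    have h2 := Finset.sum_congr rfl h1
    have h0' : ∑ i, (∏ j ∈ univ.erase i, g j (x j)) *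
        (deriv (deriv (φ i)) (x i) * ∏ j ∈ univ.erase i, φ j (x j)) = 0 := h0
    rw [h0', ← Finset.sum_mul] at h2
    exact (mul_eq_zero.mp h2.symm).resolve_right hP.ne'
  -- each ψ is constant
  have hconst : ∀ i t, ψ i t = ψ i 0 := by
    intro i t
    have h1 := hsum (Function.update 0 i t)
    have h2 := hsum (Function.update 0 i 0)
    rw [← Finset.add_sum_erase univ _ (mem_univ i)] at h1 h2
    simp only [Function.update_self] at h1 h2
    have h3 : ∑ j ∈ univ.erase i, ψ j (Function.update (0 : ι → ℝ) i t j)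
        = ∑ j ∈ univ.erase i, ψ j (Function.update (0 : ι → ℝ) i 0 j) := by
      apply Finset.sum_congr rfl
      intro j hj
      rw [Function.update_of_ne (Finset.ne_of_mem_erase hj),
        Function.update_of_ne (Finset.ne_of_mem_erase hj)]
    linarith
  have hsum0 : ∑ i, ψ i 0 = 0 := hsum 0
  have hφ2 : ∀ i t, deriv (deriv (φ i)) t = ψ i 0 * (g i t * φ i t) := by
    intro i t
    rw [← hconst i t]
    simp only [hψ]
    have h2 : g i t * φ i t ≠ 0 := (mul_pos (hconv i _) (hφpos i _)).ne'
    rw [div_mul_cancel₀ _ h2]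
  -- all constants are nonnegative
  have hnonneg : ∀ i, 0 ≤ ψ i 0 := by
    intro i
    by_contra hneg
    push Not at hneg
    have h1 : ∀ t, deriv (deriv (φ i)) t ≤ 0 := by
      intro t
      rw [hφ2]
      have := mul_pos (hconv i t) (hφpos i t)
      nlinarith
    have h2 := concave_pos_const (hφd i) (hφd' i) (hφpos i) h1
    have h3 : deriv (φ i) = fun _ => 0 := funext h2
    have h4 : deriv (deriv (φ i)) 0 = 0 := by
      rw [h3]
      simp
    have h5 := hφ2 i 0
    rw [h4] at h5
    have := mul_pos (hconv i 0) (hφpos i 0)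
    nlinarith
  have hzero : ∀ i, ψ i 0 = 0 := fun i =>
    (Finset.sum_eq_zero_iff_of_nonneg (fun j _ => hnonneg j)).mp hsum0 i (mem_univ i)
  intro i
  refine ⟨g i 0, hconv i 0, fun t => ?_⟩
  have h1 : ∀ t, deriv (deriv (φ i)) t ≤ 0 := by
    intro t
    rw [hφ2, hzero i]
    simp
  have h2 := concave_pos_const (hφd i) (hφd' i) (hφpos i) h1
  have h3 : φ i t = φ i 0 := is_const_of_deriv_eq_zero (hφd i) h2 t 0
  -- invert the power
  have h4 : g i t ^ (-α) = g i 0 ^ (-α) := h3
  have hα' : -α ≠ 0 := by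
    intro h0
    linarith
  have h5 : (g i t ^ (-α)) ^ (-α)⁻¹ = (g i 0 ^ (-α)) ^ (-α)⁻¹ := by rw [h4]
  rw [← Real.rpow_mul (hconv i t).le, ← Real.rpow_mul (hconv i 0).le, mul_inv_cancel₀ hα',
    Real.rpow_one, Real.rpow_one] at h5
  exact h5

/-- The Hessian matrix of a function on `ℝⁿ`, by iterated directional derivatives. -/
noncomputable def hessianMatrix {n : ℕ} (u : (Fin n → ℝ) → ℝ) (x : Fin n → ℝ) :
    Matrix (Fin n) (Fin n) ℝ :=
  Matrix.of fun i j => fderiv ℝ (fun y => fderiv ℝ u y (Pi.single j 1)) x (Pi.single i 1)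

/-- The weight `w = (det D²u)^(-(n+1)/(n+2))`. -/
noncomputable def amWeight {n : ℕ} (u : (Fin n → ℝ) → ℝ) (y : Fin n → ℝ) : ℝ :=
  (hessianMatrix u y).det ^ (-(((n : ℝ) + 1) / ((n : ℝ) + 2)))

/-- The affine maximal equation `∑ U^{ij} ∂_{ij} w = 0` on `ℝⁿ`, where `U` is the cofactor matrix
(the adjugate) of `D²u`. -/
def SolvesAffineMaximal {n : ℕ} (u : (Fin n → ℝ) → ℝ) : Prop :=
  ∀ x, ∑ i, ∑ j, (hessianMatrix u x).adjugate i j * hessianMatrix (amWeight u) x i j = 0

/-- The directional derivative along a coordinate as a one-variable derivative. -/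
lemma fderiv_single_eq {n : ℕ} {F : (Fin n → ℝ) → ℝ} (hF : Differentiable ℝ F)
    (x : Fin n → ℝ) (i : Fin n) {l : ℝ}
    (hl : HasDerivAt (fun t => F (Function.update x i t)) l (x i)) :
    fderiv ℝ F x (Pi.single i 1) = l := by
  have h1 : HasFDerivAt F (fderiv ℝ F x) (Function.update x i (x i)) := by
    rw [Function.update_eq_self]
    exact (hF x).hasFDerivAt
  have h2 := h1.comp_hasDerivAt (x i) (hasDerivAt_update x i (x i))
  exact h2.unique hl

/-- Separated entire solutions of the affine maximal equation are quadratic. -/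
theorem separated_quadratic {n : ℕ} (f : Fin n → ℝ → ℝ) (hf : ∀ i, ContDiff ℝ ∞ (f i))
    (hconv : ∀ i t, 0 < deriv (deriv (f i)) t)
    (hAM : SolvesAffineMaximal (fun x => ∑ i, f i (x i))) :
    ∀ i, ∃ c b d : ℝ, 0 < c ∧ ∀ t, f i t = c / 2 * t ^ 2 + b * t + d := by
  set u : (Fin n → ℝ) → ℝ := fun x => ∑ i, f i (x i) with hu
  set g : Fin n → ℝ → ℝ := fun i => deriv (deriv (f i)) with hg
  have hfd : ∀ i, Differentiable ℝ (f i) := fun i => (hf i).differentiable (by simp)
  have hf1 : ∀ i, ContDiff ℝ ∞ (deriv (f i)) := fun i => (contDiff_infty_iff_deriv.1 (hf i)).2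
  have hf1d : ∀ i, Differentiable ℝ (deriv (f i)) := fun i => (hf1 i).differentiable (by simp)
  have hgs : ∀ i, ContDiff ℝ ∞ (g i) := fun i => (contDiff_infty_iff_deriv.1 (hf1 i)).2
  set α : ℝ := ((n : ℝ) + 1) / ((n : ℝ) + 2) with hαdef
  have hα : 0 < α := by positivity
  -- first derivatives of `u`
  have hu1 : ∀ y j, fderiv ℝ u y (Pi.single j 1) = deriv (f j) (y j) := by
    intro y j
    have h1 : HasFDerivAt u (∑ i, deriv (f i) (y i) • ContinuousLinearMap.proj (R := ℝ)
        (φ := fun _ : Fin n => ℝ) i) y := by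
      apply HasFDerivAt.fun_sum
      intro i _
      have h0 : HasDerivAt (f i) (deriv (f i) (y i)) ((ContinuousLinearMap.proj (R := ℝ)
          (φ := fun _ : Fin n => ℝ) i) y) := (hfd i (y i)).hasDerivAt
      exact h0.comp_hasFDerivAt y (ContinuousLinearMap.proj (R := ℝ)
          (φ := fun _ : Fin n => ℝ) i).hasFDerivAt
    rw [h1.fderiv]
    simp [Pi.single_apply]
  -- the Hessian
  have hu2 : ∀ x, hessianMatrix u x = Matrix.diagonal fun i => g i (x i) := by
    intro x
    ext i j
    simp only [hessianMatrix, Matrix.of_apply]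
    have h1 : (fun y => fderiv ℝ u y (Pi.single j 1)) = fun y => deriv (f j) (y j) := by
      funext y
      exact hu1 y j
    rw [h1]
    have h2 : HasFDerivAt (fun y : Fin n → ℝ => deriv (f j) (y j))
        (g j (x j) • ContinuousLinearMap.proj (R := ℝ) (φ := fun _ : Fin n => ℝ) j) x := by
      have h0 : HasDerivAt (deriv (f j)) (g j (x j)) ((ContinuousLinearMap.proj (R := ℝ)
          (φ := fun _ : Fin n => ℝ) j) x) := (hf1d j (x j)).hasDerivAt
      exact h0.comp_hasFDerivAt x (ContinuousLinearMap.proj (R := ℝ)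
          (φ := fun _ : Fin n => ℝ) j).hasFDerivAt
    rw [h2.fderiv]
    by_cases hij : i = j
    · subst hij
      simp
    · simp [hij, Ne.symm hij]
  -- the weight
  set φ : Fin n → ℝ → ℝ := fun i t => g i t ^ (-α) with hφ
  have hφpos : ∀ i t, 0 < φ i t := fun i t => Real.rpow_pos_of_pos (hconv i t) _
  have hφs : ∀ i, ContDiff ℝ ∞ (φ i) := fun i =>
    (hgs i).rpow_const_of_ne (fun t => (hconv i t).ne')
  have hφd : ∀ i, Differentiable ℝ (φ i) := fun i => (hφs i).differentiable (by simp)
  have hφ1 : ∀ i, ContDiff ℝ ∞ (deriv (φ i)) := fun i => (contDiff_infty_iff_deriv.1 (hφs i)).2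
  have hφd' : ∀ i, Differentiable ℝ (deriv (φ i)) := fun i => (hφ1 i).differentiable (by simp)
  have hW : amWeight u = fun y => ∏ j, φ j (y j) := by
    funext y
    simp only [amWeight, hu2 y, Matrix.det_diagonal]
    rw [Real.finsetProd_rpow _ _ (fun j _ => (hconv j _).le)]
  have hWd : Differentiable ℝ (amWeight u) := by
    rw [hW]
    have : ContDiff ℝ ∞ (fun y : Fin n → ℝ => ∏ j, φ j (y j)) :=
      contDiff_prod (fun j _ => (hφs j).comp (contDiff_apply ℝ ℝ j))
    exact this.differentiable (by simp)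
  have hWline : ∀ (y : Fin n → ℝ) (i : Fin n) (t : ℝ),
      amWeight u (Function.update y i t) = φ i t * ∏ j ∈ univ.erase i, φ j (y j) := by
    intro y i t
    rw [hW]
    show ∏ j, φ j (Function.update y i t j) = _
    rw [← Finset.mul_prod_erase univ _ (mem_univ i)]
    simp only [Function.update_self]
    congr 1
    apply Finset.prod_congr rfl
    intro j hj
    rw [Function.update_of_ne (Finset.ne_of_mem_erase hj)]
  have hW1 : ∀ y i, fderiv ℝ (amWeight u) y (Pi.single i 1)
      = deriv (φ i) (y i) * ∏ j ∈ univ.erase i, φ j (y j) := by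
    intro y i
    apply fderiv_single_eq hWd
    simp_rw [hWline y i]
    exact (hφd i (y i)).hasDerivAt.mul_const _
  have hW2 : ∀ x i, hessianMatrix (amWeight u) x i i
      = deriv (deriv (φ i)) (x i) * ∏ j ∈ univ.erase i, φ j (x j) := by
    intro x i
    simp only [hessianMatrix, Matrix.of_apply]
    have h1 : (fun y => fderiv ℝ (amWeight u) y (Pi.single i 1))
        = fun y => deriv (φ i) (y i) * ∏ j ∈ univ.erase i, φ j (y j) := by
      funext y
      exact hW1 y i
    rw [h1]
    have hd : Differentiable ℝ (fun y : Fin n → ℝ =>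
        deriv (φ i) (y i) * ∏ j ∈ univ.erase i, φ j (y j)) := by
      apply ((hφd' i).comp (differentiable_apply i)).mul
      have : ContDiff ℝ ∞ (fun y : Fin n → ℝ => ∏ j ∈ univ.erase i, φ j (y j)) :=
        contDiff_prod (fun j _ => (hφs j).comp (contDiff_apply ℝ ℝ j))
      exact this.differentiable (by simp)
    apply fderiv_single_eq hd
    have h2 : (fun t => deriv (φ i) (Function.update x i t i) *
        ∏ j ∈ univ.erase i, φ j (Function.update x i t j))
        = fun t => deriv (φ i) t * ∏ j ∈ univ.erase i, φ j (x j) := by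
      funext t
      simp only [Function.update_self]
      congr 1
      apply Finset.prod_congr rfl
      intro j hj
      rw [Function.update_of_ne (Finset.ne_of_mem_erase hj)]
    rw [h2]
    exact (hφd' i (x i)).hasDerivAt.mul_const _
  -- reduce the equation
  have hAM' : ∀ x : Fin n → ℝ,
      ∑ i, (∏ j ∈ univ.erase i, deriv (deriv (f j)) (x j)) *
        (deriv (deriv (fun t => deriv (deriv (f i)) t ^ (-α))) (x i) *
          ∏ j ∈ univ.erase i, (deriv (deriv (f j)) (x j)) ^ (-α)) = 0 := by
    intro x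
    have h1 := hAM x
    rw [hu2 x, Matrix.adjugate_diagonal] at h1
    have h2 : ∀ i, ∑ j, (Matrix.diagonal fun i => ∏ j ∈ univ.erase i, g j (x j)) i j *
        hessianMatrix (amWeight u) x i j
        = (∏ j ∈ univ.erase i, g j (x j)) * hessianMatrix (amWeight u) x i i := by
      intro i
      rw [Finset.sum_eq_single i]
      · simp
      · intro j _ hj
        simp [Matrix.diagonal_apply_ne _ (Ne.symm hj)]
      · simp
    simp_rw [h2, hW2] at h1
    exact h1
  have hmain := separated_main f hf hconv α hα hAM'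
  intro i
  obtain ⟨c, hc, hct⟩ := hmain i
  exact ⟨c, deriv (f i) 0, f i 0, hc, quadratic_of_deriv2 (hf i) hct⟩

end Vale.Agent.P252
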